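import Vale.Agent.P235.H65.Inj

/-!
P235, bounded treewidth (plan #9610): averaging over the fibres of a map (L1), first consequences
of the class DD.
-/

namespace Vale.Agent.P235.H65

open Finset

section avg

variable {Ω Ω' V : Type*} [Fintype Ω] [DecidableEq Ω']

/-- the image law -/
def push (P : Ω → ℝ) (c : Ω → Ω') (ω' : Ω') : ℝ := ∑ ω ∈ univ.filter (fun ω => c ω = ω'), P ω

/-- conditional expectation of `f` given `c = ω'` (`0` on null cells) -/
noncomputable def avg (P : Ω → ℝ) (c : Ω → Ω') (f : Ω → ℝ) (ω' : Ω') : ℝ :=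
  (∑ ω ∈ univ.filter (fun ω => c ω = ω'), P ω * f ω) / push P c ω'

theorem push_nonneg {P : Ω → ℝ} (hP : ∀ ω, 0 ≤ P ω) (c : Ω → Ω') (ω' : Ω') :
    0 ≤ push P c ω' := sum_nonneg fun ω _ => hP ω

/-- transfer of sums -/
theorem sum_push [Fintype Ω'] (P : Ω → ℝ) (c : Ω → Ω') (F : Ω' → ℝ) :
    ∑ ω', push P c ω' * F ω' = ∑ ω, P ω * F (c ω) := by
  have h : ∀ ω', push P c ω' * F ω' = ∑ ω ∈ univ.filter (fun ω => c ω = ω'), P ω * F (c ω) := by
    intro ω'
    rw [push, sum_mul]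
    apply sum_congr rfl
    intro ω hω
    rw [(mem_filter.mp hω).2]
  rw [sum_congr rfl fun ω' _ => h ω']
  exact sum_fiberwise univ c (fun ω => P ω * F (c ω))

theorem IsLaw.push [Fintype Ω'] {P : Ω → ℝ} (hP : IsLaw P) (c : Ω → Ω') : IsLaw (push P c) := by
  refine ⟨push_nonneg hP.nonneg c, ?_⟩
  have h := sum_push P c (fun _ => 1)
  simp only [mul_one] at h
  rw [h, hP.sum]

theorem push_mul_avg {P : Ω → ℝ} (hP : ∀ ω, 0 ≤ P ω) (c : Ω → Ω') (f : Ω → ℝ) (ω' : Ω') :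
    push P c ω' * avg P c f ω' = ∑ ω ∈ univ.filter (fun ω => c ω = ω'), P ω * f ω := by
  unfold avg
  by_cases h : push P c ω' = 0
  · rw [h, zero_mul]
    symm
    apply sum_eq_zero
    intro ω hω
    have h0 : P ω = 0 := by
      have := (sum_eq_zero_iff_of_nonneg (fun ω _ => hP ω)).mp h
      exact this ω hω
    rw [h0, zero_mul]
  · field_simp

theorem avg_eq_of_const {P : Ω → ℝ} (c : Ω → Ω') (f : Ω → ℝ) (ω' : Ω')
    (hne : push P c ω' ≠ 0) (y : ℝ) (h : ∀ ω, c ω = ω' → f ω = y) : avg P c f ω' = y := by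
  unfold avg
  rw [div_eq_iff hne, push, mul_sum]
  apply sum_congr rfl
  intro ω hω
  rw [h ω (mem_filter.mp hω).2]
  ring

theorem avg_sub {P : Ω → ℝ} (c : Ω → Ω') (f f' : Ω → ℝ) (ω' : Ω') :
    avg P c (fun ω => f ω - f' ω) ω' = avg P c f ω' - avg P c f' ω' := by
  unfold avg
  rw [← sub_div, ← sum_sub_distrib]
  congr 1
  apply sum_congr rfl
  intro ω _
  ring

theorem avg_add {P : Ω → ℝ} (c : Ω → Ω') (f f' : Ω → ℝ) (ω' : Ω') :
    avg P c (fun ω => f ω + f' ω) ω' = avg P c f ω' + avg P c f' ω' := by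
  unfold avg
  rw [← add_div, ← sum_add_distrib]
  congr 1
  apply sum_congr rfl
  intro ω _
  ring

theorem avg_const_mul {P : Ω → ℝ} (c : Ω → Ω') (a : ℝ) (f : Ω → ℝ) (ω' : Ω') :
    avg P c (fun ω => a * f ω) ω' = a * avg P c f ω' := by
  unfold avg
  rw [← mul_div_assoc, mul_sum]
  congr 1
  apply sum_congr rfl
  intro ω _
  ring

/-- Jensen on one cell -/
theorem push_mul_abs_avg_le {P : Ω → ℝ} (hP : ∀ ω, 0 ≤ P ω) (c : Ω → Ω') (f : Ω → ℝ) (t : ℝ)
    (ω' : Ω') : push P c ω' * |avg P c f ω' - t|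
      ≤ ∑ ω ∈ univ.filter (fun ω => c ω = ω'), P ω * |f ω - t| := by
  have h1 : push P c ω' * |avg P c f ω' - t|
      = |∑ ω ∈ univ.filter (fun ω => c ω = ω'), P ω * (f ω - t)| := by
    have h2 : push P c ω' * |avg P c f ω' - t| = |push P c ω' * (avg P c f ω' - t)| := by
      rw [abs_mul, abs_of_nonneg (push_nonneg hP c ω')]
    rw [h2]
    congr 1
    rw [mul_sub, push_mul_avg hP]
    simp only [mul_sub, sum_sub_distrib, push, sum_mul]
  rw [h1]
  refine (abs_sum_le_sum_abs _ _).trans (le_of_eq ?_)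
  apply sum_congr rfl
  intro ω _
  rw [abs_mul, abs_of_nonneg (hP ω)]

/-- **L1, one variable.** -/
theorem Below.avg [Fintype Ω'] {P : Ω → ℝ} (hP : ∀ ω, 0 ≤ P ω) {d : ℝ} {X : Ω → ℝ} (hX : Below P d X)
    (c : Ω → Ω') : Below (push P c) d (avg P c X) := by
  intro t
  calc ∑ ω', push P c ω' * |H65.avg P c X ω' - t|
      ≤ ∑ ω', ∑ ω ∈ univ.filter (fun ω => c ω = ω'), P ω * |X ω - t| :=
        sum_le_sum fun ω' _ => push_mul_abs_avg_le hP c X t ω'
    _ = ∑ ω, P ω * |X ω - t| := sum_fiberwise univ c (fun ω => P ω * |X ω - t|)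
    _ ≤ hh d t := hX t

/-- **L1.** -/
theorem DD.avg [Fintype Ω'] {P : Ω → ℝ} (hP : ∀ ω, 0 ≤ P ω) {d : V → V → ℝ} {g : Ω → V → ℝ} (hg : DD P d g)
    (c : Ω → Ω') : DD (push P c) d (fun ω' p => avg P c (fun ω => g ω p) ω') := by
  intro p q
  have h := Below.avg hP (hg p q) c
  intro t
  refine le_trans (le_of_eq ?_) (h t)
  apply sum_congr rfl
  intro ω' _
  rw [avg_sub]

end avg

section conseq

variable {Ω V : Type*} [Fintype Ω]

/-- a law pulled back along a map preserving the law -/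
theorem Below.of_push {Ω' : Type*} [Fintype Ω'] [DecidableEq Ω'] {P : Ω → ℝ} {d : ℝ}
    {c : Ω → Ω'} {X' : Ω' → ℝ} (h : Below P d (fun ω => X' (c ω))) :
    Below (push P c) d X' := by
  intro t
  rw [sum_push P c (fun ω' => |X' ω' - t|)]
  exact h t

theorem Below.comp {Ω' : Type*} [Fintype Ω'] [DecidableEq Ω'] {P : Ω → ℝ} {d : ℝ}
    {c : Ω → Ω'} {X' : Ω' → ℝ} (h : Below (push P c) d X') :
    Below P d (fun ω => X' (c ω)) := by
  intro t
  rw [← sum_push P c (fun ω' => |X' ω' - t|)]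
  exact h t

theorem DD.comp {Ω' : Type*} [Fintype Ω'] [DecidableEq Ω'] {P : Ω → ℝ} {d : V → V → ℝ}
    {c : Ω → Ω'} {g : Ω' → V → ℝ} (h : DD (push P c) d g) :
    DD P d (fun ω => g (c ω)) := fun p q => (h p q).comp

theorem DD.of_push {Ω' : Type*} [Fintype Ω'] [DecidableEq Ω'] {P : Ω → ℝ} {d : V → V → ℝ}
    {c : Ω → Ω'} {g : Ω' → V → ℝ} (h : DD P d (fun ω => g (c ω))) :
    DD (push P c) d g := fun p q => Below.of_push (h p q)

theorem Below.mean_abs {P : Ω → ℝ} {d : ℝ} (hd : 0 ≤ d) {X : Ω → ℝ} (h : Below P d X) :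
    ∑ ω, P ω * |X ω| ≤ d / 2 := by
  have := h 0
  rw [hh_zero d hd] at this
  simpa using this

theorem Below.abs_le {P : Ω → ℝ} (hP : IsLaw P) {d : ℝ} (hd : 0 ≤ d) {X : Ω → ℝ}
    (h : Below P d X) (ω : Ω) (hω : 0 < P ω) : |X ω| ≤ d := by
  have h1 := h d
  have h2 := h (-d)
  rw [hh_of_le (by rw [abs_of_nonneg hd]), abs_of_nonneg hd] at h1
  rw [hh_of_le (by rw [abs_neg, abs_of_nonneg hd]), abs_neg, abs_of_nonneg hd] at h2
  have h3 : ∑ ω, P ω * (|X ω - d| + |X ω - -d| - 2 * d) ≤ 0 := by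
    have : ∑ ω, P ω * (|X ω - d| + |X ω - -d| - 2 * d)
        = ∑ ω, P ω * |X ω - d| + ∑ ω, P ω * |X ω - -d| - (∑ ω, P ω) * (2 * d) := by
      rw [sum_mul, ← sum_add_distrib, ← sum_sub_distrib]
      apply sum_congr rfl
      intro ω _
      ring
    rw [this, hP.sum]
    linarith
  have h4 : ∀ ω, 0 ≤ |X ω - d| + |X ω - -d| - 2 * d := by
    intro ω
    have a1 := neg_le_abs (X ω - d)
    have a2 := le_abs_self (X ω - -d)
    linarith
  have h5 : ∀ ω ∈ univ, 0 ≤ P ω * (|X ω - d| + |X ω - -d| - 2 * d) := fun ω _ =>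
    mul_nonneg (hP.nonneg ω) (h4 ω)
  have h6 := (sum_eq_zero_iff_of_nonneg h5).mp (le_antisymm h3 (sum_nonneg h5)) ω (mem_univ _)
  have h7 : |X ω - d| + |X ω - -d| - 2 * d = 0 := by
    rcases mul_eq_zero.mp h6 with h | h
    · exact absurd h hω.ne'
    · exact h
  rw [_root_.abs_le]
  constructor
  · have a1 := neg_le_abs (X ω - d)
    have a2 := neg_le_abs (X ω - -d)
    linarith
  · have a1 := le_abs_self (X ω - d)
    have a2 := le_abs_self (X ω - -d)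
    linarith

theorem DD.mean_abs {P : Ω → ℝ} {d : V → V → ℝ} (hd : ∀ p q, 0 ≤ d p q) {g : Ω → V → ℝ}
    (h : DD P d g) (p q : V) : ∑ ω, P ω * |g ω p - g ω q| ≤ d p q / 2 :=
  (h p q).mean_abs (hd p q)

theorem DD.abs_le {P : Ω → ℝ} (hP : IsLaw P) {d : V → V → ℝ} (hd : ∀ p q, 0 ≤ d p q)
    {g : Ω → V → ℝ} (h : DD P d g) (ω : Ω) (hω : 0 < P ω) (p q : V) :
    |g ω p - g ω q| ≤ d p q :=
  (h p q).abs_le hP (hd p q) ω hω

/-- the zero function is in DD -/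
theorem DD.zero {P : Ω → ℝ} (hP : IsLaw P) {d : V → V → ℝ} (hd : ∀ p q, 0 ≤ d p q) :
    DD P d (fun _ _ => 0) := by
  intro p q t
  have : ∑ ω, P ω * |(0 : ℝ) - 0 - t| = |t| := by
    rw [← sum_mul, hP.sum, one_mul, sub_zero, zero_sub, abs_neg]
  rw [this]
  exact abs_le_hh (hd p q)

end conseq

end Vale.Agent.P235.H65
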