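import Vale.Agent.P235.H65.Avg

/-!
P235, bounded treewidth (plan #9610): the law of the level cuts `{a | T < φ a}` of a function
(`T` uniform in `[-K, K)`), and transparency (L3): it is linear on functions monotone with respect
to a fixed total preorder, so averaging over cells of constant weak order type does not change it.
-/

namespace Vale.Agent.P235.H65

open Finset MeasureTheory

section cut

variable {α β : Type*}

/-- the level cut of `φ` at `T` -/
noncomputable def lev (φ : α → ℝ) (T : ℝ) : α → Bool := fun a => decide (T < φ a)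

/-- thresholds giving the cut `S` -/
def cutSet (K : ℝ) (φ : α → ℝ) (S : α → Bool) : Set ℝ := {T | T ∈ Set.Ico (-K) K ∧ lev φ T = S}

/-- (unnormalised) law of the level cuts: total mass `2K` -/
noncomputable def cutMass (K : ℝ) (φ : α → ℝ) (S : α → Bool) : ℝ :=
  (volume (cutSet K φ S)).toReal

theorem mem_cutSet {K : ℝ} {φ : α → ℝ} {S : α → Bool} {T : ℝ} :
    T ∈ cutSet K φ S ↔ (-K ≤ T ∧ T < K) ∧ ∀ a, (S a = true ↔ T < φ a) := by
  unfold cutSet lev
  simp only [Set.mem_ofPred_eq, Set.mem_Ico]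
  apply and_congr_right
  intro _
  constructor
  · intro h a
    rw [← h]
    simp
  · intro h
    funext a
    rw [Bool.eq_iff_iff, h a]
    simp

theorem cutMass_nonneg (K : ℝ) (φ : α → ℝ) (S : α → Bool) : 0 ≤ cutMass K φ S :=
  ENNReal.toReal_nonneg

theorem measurableSet_cutSet [Finite α] (K : ℝ) (φ : α → ℝ) (S : α → Bool) :
    MeasurableSet (cutSet K φ S) := by
  have h : cutSet K φ S = Set.Ico (-K) K ∩ ⋂ a, {T | (S a = true ↔ T < φ a)} := by
    ext T
    rw [mem_cutSet]
    simp only [Set.mem_inter_iff, Set.mem_Ico, Set.mem_iInter, Set.mem_ofPred_eq]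
  rw [h]
  refine measurableSet_Ico.inter (MeasurableSet.iInter fun a => ?_)
  cases hS : S a with
  | true =>
    have : {T | ((true : Bool) = true ↔ T < φ a)} = Set.Iio (φ a) := by
      ext T; simp
    rw [this]
    exact measurableSet_Iio
  | false =>
    have : {T | ((false : Bool) = true ↔ T < φ a)} = Set.Ici (φ a) := by
      ext T; simp
    rw [this]
    exact measurableSet_Ici

/-- the mass of a set of cuts -/
theorem sum_cutMass [Fintype α] [DecidableEq α] (K : ℝ) (φ : α → ℝ) (p : (α → Bool) → Prop)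
    [DecidablePred p] : ∑ S ∈ univ.filter p, cutMass K φ S
      = (volume {T | T ∈ Set.Ico (-K) K ∧ p (lev φ T)}).toReal := by
  have h : {T | T ∈ Set.Ico (-K) K ∧ p (lev φ T)} = ⋃ S ∈ univ.filter p, cutSet K φ S := by
    ext T
    simp only [Set.mem_ofPred_eq, Set.mem_iUnion, mem_filter, mem_univ, true_and, cutSet,
      exists_prop]
    constructor
    · rintro ⟨h1, h2⟩
      exact ⟨_, h2, h1, rfl⟩
    · rintro ⟨S, h2, h1, rfl⟩
      exact ⟨h1, h2⟩
  rw [h, measure_biUnion_finset]
  · rw [ENNReal.toReal_sum]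
    · rfl
    · intro S _
      refine ne_top_of_le_ne_top ?_ (measure_mono (t := Set.Ico (-K) K) fun T hT => hT.1)
      rw [Real.volume_Ico]
      exact ENNReal.ofReal_ne_top
  · intro S _ S' _ hne
    refine Set.disjoint_left.mpr fun T h1 h2 => hne ?_
    rw [← h1.2, ← h2.2]
  · intro S _
    exact measurableSet_cutSet K φ S

theorem sum_cutMass_univ [Fintype α] [DecidableEq α] {K : ℝ} (hK : 0 ≤ K) (φ : α → ℝ) :
    ∑ S, cutMass K φ S = 2 * K := by
  have h := sum_cutMass K φ (fun _ => True)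
  simp only [filter_true, and_true] at h
  rw [h]
  have : {T : ℝ | T ∈ Set.Ico (-K) K} = Set.Ico (-K) K := rfl
  rw [this, Real.volume_Ico, ENNReal.toReal_ofReal (by linarith)]
  ring

/-- **marginals**: restriction (or any pull back) of the cuts -/
theorem cutMass_comp [Fintype β] [DecidableEq β] [Fintype α] [DecidableEq α] (K : ℝ)
    (φ : β → ℝ) (j : α → β) (S' : α → Bool) :
    ∑ S ∈ univ.filter (fun S : β → Bool => (fun a => S (j a)) = S'), cutMass K φ S
      = cutMass K (fun a => φ (j a)) S' := by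
  rw [sum_cutMass]
  rfl

/-- probability that two points are separated -/
theorem sum_cutMass_ne [Fintype α] [DecidableEq α] {K : ℝ} (φ : α → ℝ)
    (hφ : ∀ a, |φ a| ≤ K) (p q : α) :
    ∑ S ∈ univ.filter (fun S : α → Bool => S p ≠ S q), cutMass K φ S = |φ p - φ q| := by
  rw [sum_cutMass]
  have hp := abs_le.mp (hφ p)
  have hq := abs_le.mp (hφ q)
  have h : {T | T ∈ Set.Ico (-K) K ∧ lev φ T p ≠ lev φ T q}
      = Set.Ico (min (φ p) (φ q)) (max (φ p) (φ q)) := by
    ext T
    simp only [lev, Set.mem_ofPred_eq, Set.mem_Ico, ne_eq, decide_eq_decide, min_le_iff,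
      lt_max_iff]
    constructor
    · rintro ⟨_, h2⟩
      by_cases h3 : T < φ p
      · have h4 : ¬ T < φ q := fun h => h2 (iff_of_true h3 h)
        exact ⟨Or.inr (not_lt.mp h4), Or.inl h3⟩
      · have h4 : T < φ q := by
          by_contra h
          exact h2 (iff_of_false h3 h)
        exact ⟨Or.inl (not_lt.mp h3), Or.inr h4⟩
    · rintro ⟨h1, h2⟩
      refine ⟨⟨?_, ?_⟩, ?_⟩
      · rcases h1 with h | h <;> linarith
      · rcases h2 with h | h <;> linarith
      · rcases h1 with h1 | h1 <;> rcases h2 with h2 | h2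
        · exact absurd h2 (not_lt.mpr h1)
        · exact fun h => absurd (h.mpr h2) (not_lt.mpr h1)
        · exact fun h => absurd (h.mp h2) (not_lt.mpr h1)
        · exact absurd h2 (not_lt.mpr h1)
  rw [h, Real.volume_Ico, ENNReal.toReal_ofReal (sub_nonneg.mpr min_le_max), max_sub_min_eq_abs]
  exact abs_sub_comm _ _

/-- probability that a point is in the cut -/
theorem sum_cutMass_true [Fintype α] [DecidableEq α] {K : ℝ} (φ : α → ℝ)
    (hφ : ∀ a, |φ a| ≤ K) (p : α) :
    ∑ S ∈ univ.filter (fun S : α → Bool => S p = true), cutMass K φ S = φ p + K := by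
  rw [sum_cutMass]
  have hp := abs_le.mp (hφ p)
  have h : {T | T ∈ Set.Ico (-K) K ∧ lev φ T p = true} = Set.Ico (-K) (φ p) := by
    ext T
    simp only [lev, Set.mem_ofPred_eq, Set.mem_Ico, decide_eq_true_eq]
    constructor
    · rintro ⟨⟨h1, _⟩, h2⟩
      exact ⟨h1, h2⟩
    · rintro ⟨h1, h2⟩
      exact ⟨⟨h1, by linarith⟩, h2⟩
  rw [h, Real.volume_Ico, ENNReal.toReal_ofReal (by linarith)]
  ring

/-- closed form, nontrivial cut -/
theorem cutMass_both {K : ℝ} (φ : α → ℝ) (hφ : ∀ a, |φ a| ≤ K) (S : α → Bool) (a b : α)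
    (ha : S a = true) (ha' : ∀ x, S x = true → φ a ≤ φ x)
    (hb : S b = false) (hb' : ∀ x, S x = false → φ x ≤ φ b) :
    cutMass K φ S = max (φ a - φ b) 0 := by
  have hp := abs_le.mp (hφ a)
  have hq := abs_le.mp (hφ b)
  have h : cutSet K φ S = Set.Ico (φ b) (φ a) := by
    ext T
    rw [mem_cutSet, Set.mem_Ico]
    constructor
    · rintro ⟨_, h2⟩
      refine ⟨?_, (h2 a).mp ha⟩
      by_contra h
      have := (h2 b).mpr (not_le.mp h)
      rw [hb] at this
      exact absurd this (by simp)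
    · rintro ⟨h1, h2⟩
      refine ⟨⟨by linarith, by linarith⟩, fun x => ?_⟩
      constructor
      · intro hx
        linarith [ha' x hx]
      · intro hx
        by_contra hc
        have hc' : S x = false := by simpa using hc
        linarith [hb' x hc']
  rw [cutMass, h, Real.volume_Ico, ENNReal.toReal_ofReal']

theorem cutMass_top {K : ℝ} (φ : α → ℝ) (hφ : ∀ a, |φ a| ≤ K) (S : α → Bool) (a : α)
    (hS : ∀ x, S x = true) (ha' : ∀ x, φ a ≤ φ x) : cutMass K φ S = φ a + K := by
  have hp := abs_le.mp (hφ a)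
  have h : cutSet K φ S = Set.Ico (-K) (φ a) := by
    ext T
    rw [mem_cutSet, Set.mem_Ico]
    constructor
    · rintro ⟨h1, h2⟩
      exact ⟨h1.1, (h2 a).mp (hS a)⟩
    · rintro ⟨h1, h2⟩
      exact ⟨⟨h1, by linarith⟩, fun x => iff_of_true (hS x) (by linarith [ha' x])⟩
  rw [cutMass, h, Real.volume_Ico, ENNReal.toReal_ofReal (by linarith)]
  ring

theorem cutMass_bot {K : ℝ} (φ : α → ℝ) (hφ : ∀ a, |φ a| ≤ K) (S : α → Bool) (b : α)
    (hS : ∀ x, S x = false) (hb' : ∀ x, φ x ≤ φ b) : cutMass K φ S = K - φ b := by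
  have hp := abs_le.mp (hφ b)
  have h : cutSet K φ S = Set.Ico (φ b) K := by
    ext T
    rw [mem_cutSet, Set.mem_Ico]
    constructor
    · rintro ⟨h1, h2⟩
      refine ⟨?_, h1.2⟩
      by_contra h
      have := (h2 b).mpr (not_le.mp h)
      rw [hS b] at this
      exact absurd this (by simp)
    · rintro ⟨h1, h2⟩
      exact ⟨⟨by linarith, h2⟩, fun x => iff_of_false (by simp [hS x])
        (not_lt.mpr (by linarith [hb' x]))⟩
  rw [cutMass, h, Real.volume_Ico, ENNReal.toReal_ofReal (by linarith)]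

theorem cutMass_empty [IsEmpty α] {K : ℝ} (hK : 0 ≤ K) (φ : α → ℝ) (S : α → Bool) :
    cutMass K φ S = 2 * K := by
  have h : cutSet K φ S = Set.Ico (-K) K := by
    ext T
    rw [mem_cutSet, Set.mem_Ico]
    simp
  rw [cutMass, h, Real.volume_Ico, ENNReal.toReal_ofReal (by linarith)]
  ring

/-- minimal elements for a total preorder on a nonempty finite set -/
theorem exists_min_of_total {α : Type*} (s : Finset α) (hs : s.Nonempty) (r : α → α → Prop)
    (htot : ∀ a b, r a b ∨ r b a) (htr : ∀ a b c, r a b → r b c → r a c) :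
    ∃ a ∈ s, ∀ x ∈ s, r a x := by
  classical
  induction hs using Finset.Nonempty.cons_induction with
  | singleton a =>
    refine ⟨a, mem_singleton_self a, fun x hx => ?_⟩
    rw [mem_singleton.mp hx]
    rcases htot a a with h | h <;> exact h
  | cons a s ha hs ih =>
    obtain ⟨b, hb, hb'⟩ := ih
    rcases htot a b with h | h
    · refine ⟨a, mem_cons_self a s, fun x hx => ?_⟩
      rcases mem_cons.mp hx with rfl | hx
      · rcases htot x x with h | h <;> exact h
      · exact htr _ _ _ h (hb' x hx)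
    · refine ⟨b, mem_cons_of_mem hb, fun x hx => ?_⟩
      rcases mem_cons.mp hx with rfl | hx
      · exact h
      · exact hb' x hx

/-- **transparency (L3), general form**: on the cone of functions monotone with respect to a fixed
total preorder `r`, the cut law is linear. -/
theorem cutMass_linear [Fintype α] {ι : Type*} (s : Finset ι) (w : ι → ℝ)
    (hw : ∀ i ∈ s, 0 ≤ w i) {W : ℝ} (hW : W = ∑ i ∈ s, w i) (hWpos : 0 < W) (φ : ι → α → ℝ)
    (r : α → α → Prop) (htot : ∀ a b, r a b ∨ r b a) (htr : ∀ a b c, r a b → r b c → r a c)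
    (hmono : ∀ i ∈ s, ∀ a b, r a b → φ i a ≤ φ i b) {K : ℝ} (hK : ∀ i ∈ s, ∀ a, |φ i a| ≤ K)
    (hK0 : 0 ≤ K) (φ' : α → ℝ) (hφ' : ∀ a, W * φ' a = ∑ i ∈ s, w i * φ i a) (S : α → Bool) :
    W * cutMass K φ' S = ∑ i ∈ s, w i * cutMass K (φ i) S := by
  classical
  have hmono' : ∀ a b, r a b → φ' a ≤ φ' b := by
    intro a b hab
    have : W * φ' a ≤ W * φ' b := by
      rw [hφ', hφ']
      exact sum_le_sum fun i hi => mul_le_mul_of_nonneg_left (hmono i hi a b hab) (hw i hi)
    exact le_of_mul_le_mul_left this hWpos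
  have hK' : ∀ a, |φ' a| ≤ K := by
    intro a
    have h1 : |W * φ' a| ≤ W * K := by
      rw [hφ']
      refine (abs_sum_le_sum_abs _ _).trans ?_
      rw [hW, sum_mul]
      apply sum_le_sum
      intro i hi
      rw [abs_mul, abs_of_nonneg (hw i hi)]
      exact mul_le_mul_of_nonneg_left (hK i hi a) (hw i hi)
    rw [abs_mul, abs_of_pos hWpos] at h1
    exact le_of_mul_le_mul_left h1 hWpos
  rcases isEmpty_or_nonempty α with hα | hα
  · rw [cutMass_empty hK0]
    rw [hW, sum_mul]
    exact sum_congr rfl fun i _ => by rw [cutMass_empty hK0]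
  by_cases hS1 : (univ.filter fun x => S x = true).Nonempty
  · obtain ⟨a, ha, ha'⟩ := exists_min_of_total _ hS1 r htot htr
    have haS : S a = true := (mem_filter.mp ha).2
    have ha'' : ∀ x, S x = true → r a x := fun x hx => ha' x (mem_filter.mpr ⟨mem_univ _, hx⟩)
    by_cases hS2 : (univ.filter fun x => S x = false).Nonempty
    · obtain ⟨b, hb, hb'⟩ := exists_min_of_total _ hS2 (fun x y => r y x)
        (fun x y => htot y x) (fun x y z h1 h2 => htr _ _ _ h2 h1)
      have hbS : S b = false := (mem_filter.mp hb).2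
      have hb'' : ∀ x, S x = false → r x b := fun x hx => hb' x (mem_filter.mpr ⟨mem_univ _, hx⟩)
      have e1 : cutMass K φ' S = max (φ' a - φ' b) 0 :=
        cutMass_both φ' hK' S a b haS (fun x hx => hmono' _ _ (ha'' x hx)) hbS
          (fun x hx => hmono' _ _ (hb'' x hx))
      have e2 : ∀ i ∈ s, cutMass K (φ i) S = max (φ i a - φ i b) 0 := fun i hi =>
        cutMass_both (φ i) (hK i hi) S a b haS (fun x hx => hmono i hi _ _ (ha'' x hx)) hbS
          (fun x hx => hmono i hi _ _ (hb'' x hx))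
      rw [e1, sum_congr rfl fun i hi => by rw [e2 i hi]]
      rcases htot a b with hab | hab
      · rw [max_eq_right (sub_nonpos.mpr (hmono' a b hab)), mul_zero]
        symm
        apply sum_eq_zero
        intro i hi
        rw [max_eq_right (sub_nonpos.mpr (hmono i hi a b hab)), mul_zero]
      · rw [max_eq_left (sub_nonneg.mpr (hmono' b a hab)), mul_sub, hφ', hφ', ← sum_sub_distrib]
        apply sum_congr rfl
        intro i hi
        rw [max_eq_left (sub_nonneg.mpr (hmono i hi b a hab)), mul_sub]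
    · have hall : ∀ x, S x = true := by
        intro x
        by_contra h
        exact hS2 ⟨x, mem_filter.mpr ⟨mem_univ _, by simpa using h⟩⟩
      have e1 : cutMass K φ' S = φ' a + K :=
        cutMass_top φ' hK' S a hall (fun x => hmono' _ _ (ha'' x (hall x)))
      have e2 : ∀ i ∈ s, cutMass K (φ i) S = φ i a + K := fun i hi =>
        cutMass_top (φ i) (hK i hi) S a hall (fun x => hmono i hi _ _ (ha'' x (hall x)))
      rw [e1, sum_congr rfl fun i hi => by rw [e2 i hi], mul_add, hφ', hW, sum_mul,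
        ← sum_add_distrib]
      exact sum_congr rfl fun i _ => by ring
  · have hall : ∀ x, S x = false := by
      intro x
      by_contra h
      exact hS1 ⟨x, mem_filter.mpr ⟨mem_univ _, by simpa using h⟩⟩
    obtain ⟨b, _, hb'⟩ := exists_min_of_total (univ : Finset α) univ_nonempty (fun x y => r y x)
        (fun x y => htot y x) (fun x y z h1 h2 => htr _ _ _ h2 h1)
    have e1 : cutMass K φ' S = K - φ' b :=
      cutMass_bot φ' hK' S b hall (fun x => hmono' _ _ (hb' x (mem_univ _)))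
    have e2 : ∀ i ∈ s, cutMass K (φ i) S = K - φ i b := fun i hi =>
      cutMass_bot (φ i) (hK i hi) S b hall (fun x => hmono i hi _ _ (hb' x (mem_univ _)))
    rw [e1, sum_congr rfl fun i hi => by rw [e2 i hi], mul_sub, hφ', hW, sum_mul,
      ← sum_sub_distrib]
    exact sum_congr rfl fun i _ => by ring

end cut

section transparency

variable {Ω Ω' α : Type*} [Fintype Ω] [DecidableEq Ω'] [Fintype α]

/-- **L3 (transparency)**, with a perturbation: `g` has constant weak order type on the fibres of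
`c`, `h` is weakly monotone with respect to the order of `g`.  Then averaging `h` over the fibres
does not change its cut law, cell by cell. -/
theorem transparency {P : Ω → ℝ} (hP : ∀ ω, 0 ≤ P ω) (c : Ω → Ω') (g h : Ω → α → ℝ) {K : ℝ}
    (hK0 : 0 ≤ K) (hK : ∀ ω, 0 < P ω → ∀ a, |h ω a| ≤ K)
    (hord : ∀ ω₁ ω₂, 0 < P ω₁ → 0 < P ω₂ → c ω₁ = c ω₂ →
      ∀ a b, g ω₁ a ≤ g ω₁ b → g ω₂ a ≤ g ω₂ b)
    (hmono : ∀ ω, 0 < P ω → ∀ a b, g ω a ≤ g ω b → h ω a ≤ h ω b) (ω' : Ω') (S : α → Bool) :
    push P c ω' * cutMass K (fun a => avg P c (fun ω => h ω a) ω') S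
      = ∑ ω ∈ univ.filter (fun ω => c ω = ω'), P ω * cutMass K (h ω) S := by
  classical
  by_cases h0 : push P c ω' = 0
  · rw [h0, zero_mul]
    symm
    apply sum_eq_zero
    intro ω hω
    have h0 : P ω = 0 := by
      have := (sum_eq_zero_iff_of_nonneg (fun ω _ => hP ω)).mp h0
      exact this ω hω
    rw [h0, zero_mul]
  · have hpos : 0 < push P c ω' := lt_of_le_of_ne (push_nonneg hP c ω') (Ne.symm h0)
    -- restrict to the atoms of positive mass
    set s : Finset Ω := univ.filter (fun ω => c ω = ω' ∧ 0 < P ω) with hs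
    have hsum : ∀ F : Ω → ℝ, ∑ ω ∈ univ.filter (fun ω => c ω = ω'), P ω * F ω
        = ∑ ω ∈ s, P ω * F ω := by
      intro F
      symm
      apply sum_subset
      · intro ω hω
        rw [mem_filter] at hω ⊢
        exact ⟨hω.1, hω.2.1⟩
      · intro ω hω hω'
        rw [mem_filter] at hω hω'
        have : ¬ 0 < P ω := fun hpo => hω' ⟨mem_univ _, hω.2, hpo⟩
        have : P ω = 0 := le_antisymm (not_lt.mp this) (hP ω)
        rw [this, zero_mul]
    have hW : push P c ω' = ∑ ω ∈ s, P ω := by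
      have := hsum (fun _ => 1)
      simp only [mul_one] at this
      exact this
    have hne : s.Nonempty := by
      rw [nonempty_iff_ne_empty]
      intro he
      rw [hW, he, sum_empty] at hpos
      exact lt_irrefl _ hpos
    obtain ⟨ω₀, hω₀⟩ := hne
    have hω₀' := (mem_filter.mp hω₀).2
    rw [hsum]
    refine cutMass_linear s P (fun i _ => hP i) hW hpos h (fun a b => g ω₀ a ≤ g ω₀ b)
      (fun a b => le_total _ _) (fun a b c h1 h2 => h1.trans h2) ?_ ?_ hK0 _ ?_ S
    · intro ω hω a b hab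
      have hω' := (mem_filter.mp hω).2
      exact hmono ω hω'.2 a b (hord ω₀ ω hω₀'.2 hω'.2 (by rw [hω₀'.1, hω'.1]) a b hab)
    · intro ω hω a
      exact hK ω (mem_filter.mp hω).2.2 a
    · intro a
      rw [push_mul_avg hP, hsum]

/-- the cut law of a random function -/
noncomputable def cutLaw (P : Ω → ℝ) (K : ℝ) (g : Ω → α → ℝ) (S : α → Bool) : ℝ :=
  ∑ ω, P ω * cutMass K (g ω) S

theorem transparency_law [Fintype Ω'] {P : Ω → ℝ} (hP : ∀ ω, 0 ≤ P ω) (c : Ω → Ω')
    (g h : Ω → α → ℝ) {K : ℝ} (hK0 : 0 ≤ K) (hK : ∀ ω, 0 < P ω → ∀ a, |h ω a| ≤ K)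
    (hord : ∀ ω₁ ω₂, 0 < P ω₁ → 0 < P ω₂ → c ω₁ = c ω₂ →
      ∀ a b, g ω₁ a ≤ g ω₁ b → g ω₂ a ≤ g ω₂ b)
    (hmono : ∀ ω, 0 < P ω → ∀ a b, g ω a ≤ g ω b → h ω a ≤ h ω b) (S : α → Bool) :
    cutLaw (push P c) K (fun ω' a => avg P c (fun ω => h ω a) ω') S = cutLaw P K h S := by
  unfold cutLaw
  rw [← sum_fiberwise univ c (fun ω => P ω * cutMass K (h ω) S)]
  exact sum_congr rfl fun ω' _ => transparency hP c g h hK0 hK hord hmono ω' S

omit [Fintype α] in
theorem cutLaw_nonneg {P : Ω → ℝ} (hP : ∀ ω, 0 ≤ P ω) (K : ℝ) (g : Ω → α → ℝ) (S : α → Bool) :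
    0 ≤ cutLaw P K g S :=
  sum_nonneg fun ω _ => mul_nonneg (hP ω) (cutMass_nonneg _ _ _)

theorem cutLaw_sum [DecidableEq α] {P : Ω → ℝ} (hP : IsLaw P) {K : ℝ} (hK : 0 ≤ K)
    (g : Ω → α → ℝ) : ∑ S, cutLaw P K g S = 2 * K := by
  unfold cutLaw
  rw [sum_comm]
  simp only [← mul_sum, sum_cutMass_univ hK]
  rw [← sum_mul, hP.sum, one_mul]

theorem cutLaw_comp [DecidableEq α] {β : Type*} [Fintype β] [DecidableEq β] (P : Ω → ℝ) (K : ℝ)
    (g : Ω → β → ℝ) (j : α → β) (S' : α → Bool) :
    ∑ S ∈ univ.filter (fun S : β → Bool => (fun a => S (j a)) = S'), cutLaw P K g S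
      = cutLaw P K (fun ω a => g ω (j a)) S' := by
  unfold cutLaw
  rw [sum_comm]
  simp only [← mul_sum, cutMass_comp]

theorem cutLaw_ne [DecidableEq α] (P : Ω → ℝ) {K : ℝ} (g : Ω → α → ℝ)
    (hP : ∀ ω, 0 ≤ P ω) (hK : ∀ ω, 0 < P ω → ∀ a, |g ω a| ≤ K) (p q : α) :
    ∑ S ∈ univ.filter (fun S : α → Bool => S p ≠ S q), cutLaw P K g S
      = ∑ ω, P ω * |g ω p - g ω q| := by
  unfold cutLaw
  rw [sum_comm]
  simp only [← mul_sum]
  apply sum_congr rfl
  intro ω _
  rcases (hP ω).eq_or_lt with h | h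
  · rw [← h, zero_mul, zero_mul]
  · rw [sum_cutMass_ne _ (hK ω h)]

theorem cutLaw_true [DecidableEq α] {P : Ω → ℝ} (hP : IsLaw P) {K : ℝ} (g : Ω → α → ℝ)
    (hK : ∀ ω, 0 < P ω → ∀ a, |g ω a| ≤ K) (p : α) :
    ∑ S ∈ univ.filter (fun S : α → Bool => S p = true), cutLaw P K g S
      = ∑ ω, P ω * g ω p + K := by
  unfold cutLaw
  rw [sum_comm]
  simp only [← mul_sum]
  have : ∀ ω, P ω * ∑ S ∈ univ.filter (fun S : α → Bool => S p = true), cutMass K (g ω) S
      = P ω * g ω p + P ω * K := by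
    intro ω
    rcases (hP.nonneg ω).eq_or_lt with h | h
    · rw [← h]; ring
    · rw [sum_cutMass_true _ (hK ω h)]; ring
  rw [sum_congr rfl fun ω _ => this ω, sum_add_distrib, ← sum_mul, hP.sum, one_mul]

end transparency

end Vale.Agent.P235.H65
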