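import Mathlib

/-!
P235, bounded treewidth (plan #9610): the class DD (convex order below a uniform variable),
averaging over cells (L1) and the injection lemma (L2).
-/

namespace Vale.Agent.P235.H65

open Finset

/-- `hh d t = E |d U - t|` for `U` uniform on `[-1,1]`. -/
noncomputable def hh (d t : ℝ) : ℝ := if |t| ≤ d then (d ^ 2 + t ^ 2) / (2 * d) else |t|

theorem hh_zero (d : ℝ) (hd : 0 ≤ d) : hh d 0 = d / 2 := by
  unfold hh
  rw [if_pos (by simpa using hd)]
  rcases hd.eq_or_lt with h | h
  · simp [← h]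
  · field_simp
    ring

theorem hh_of_le {d t : ℝ} (h : d ≤ |t|) : hh d t = |t| := by
  unfold hh
  split_ifs with h1
  · have h2 : |t| = d := le_antisymm h1 h
    have h3 : t ^ 2 = d ^ 2 := by rw [← sq_abs, h2]
    rcases (abs_nonneg t).eq_or_lt with h4 | h4
    · have : d = 0 := by rw [← h2, ← h4]
      have ht : t = 0 := abs_eq_zero.mp h4.symm
      simp [this, ht]
    · rw [h2] at h4 ⊢
      rw [h3]
      field_simp
      ring
  · rfl

theorem abs_le_hh {d t : ℝ} (hd : 0 ≤ d) : |t| ≤ hh d t := by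
  unfold hh
  split_ifs with h1
  · rcases hd.eq_or_lt with h | h
    · have : |t| = 0 := le_antisymm (by linarith) (abs_nonneg t)
      rw [this]
      positivity
    · rw [le_div_iff₀ (by linarith)]
      have : t ^ 2 = |t| ^ 2 := (sq_abs t).symm
      nlinarith [sq_nonneg (d - |t|)]
  · exact le_rfl

theorem hh_le_quad {d t : ℝ} (hd : 0 < d) : hh d t ≤ (d ^ 2 + t ^ 2) / (2 * d) := by
  unfold hh
  split_ifs with h1
  · exact le_rfl
  · rw [le_div_iff₀ (by linarith)]
    have : t ^ 2 = |t| ^ 2 := (sq_abs t).symm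
    nlinarith [sq_nonneg (d - |t|)]

theorem hh_neg (d t : ℝ) : hh d (-t) = hh d t := by
  unfold hh
  simp

/-- the second difference bound, for `t ≥ 0` -/
theorem hh_second_aux {d t s : ℝ} (hd : 0 < d) (ht : 0 ≤ t) (hs : 0 ≤ s) :
    hh d (t + s) + hh d (t - s) ≤ 2 * hh d t + s ^ 2 / d := by
  by_cases h : |t| ≤ d
  · have h0 : hh d t = (d ^ 2 + t ^ 2) / (2 * d) := by
      unfold hh
      rw [if_pos h]
    have h1 := hh_le_quad (t := t + s) hd
    have h2 := hh_le_quad (t := t - s) hd
    have h3 : (d ^ 2 + (t + s) ^ 2) / (2 * d) + (d ^ 2 + (t - s) ^ 2) / (2 * d)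
        = 2 * ((d ^ 2 + t ^ 2) / (2 * d)) + s ^ 2 / d := by
      field_simp
      ring
    rw [h0]
    linarith
  · push_neg at h
    rw [abs_of_nonneg ht] at h
    have h0 : hh d t = t := by
      rw [hh_of_le (by rw [abs_of_nonneg ht]; exact h.le), abs_of_nonneg ht]
    have h1 : hh d (t + s) = t + s := by
      rw [hh_of_le (by rw [abs_of_nonneg (by linarith)]; linarith), abs_of_nonneg (by linarith)]
    have hq : 0 ≤ s ^ 2 / d := by positivity
    by_cases h2 : d ≤ t - s
    · have h3 : hh d (t - s) = t - s := by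
        rw [hh_of_le (by rw [abs_of_nonneg (by linarith)]; linarith), abs_of_nonneg (by linarith)]
      rw [h0, h1, h3]
      linarith
    · push_neg at h2
      have h3 := hh_le_quad (t := t - s) hd
      have h4 : (d ^ 2 + (t - s) ^ 2) / (2 * d) ≤ t - s + s ^ 2 / d := by
        have h5 : t - s + s ^ 2 / d = (2 * d * (t - s) + 2 * s ^ 2) / (2 * d) := by
          field_simp
        rw [h5]
        apply div_le_div_of_nonneg_right _ (by linarith)
        nlinarith [sq_nonneg s, mul_nonneg (sub_nonneg.mpr h.le) (by linarith : (0:ℝ) ≤ s),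
          mul_nonneg (sub_nonneg.mpr h.le) (by linarith : (0:ℝ) ≤ d - (t - s))]
      rw [h0, h1]
      linarith

theorem hh_second {d t s : ℝ} (hd : 0 < d) (hs : 0 ≤ s) :
    hh d (t + s) + hh d (t - s) ≤ 2 * hh d t + s ^ 2 / d := by
  rcases le_total 0 t with ht | ht
  · exact hh_second_aux hd ht hs
  · have h := hh_second_aux (t := -t) hd (by linarith) hs
    have h1 : hh d (-t + s) = hh d (t - s) := by
      rw [← hh_neg]
      congr 1
      ring
    have h2 : hh d (-t - s) = hh d (t + s) := by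
      rw [← hh_neg]
      congr 1
      ring
    rw [h1, h2, hh_neg] at h
    linarith

/-- `|y-s|+|y+s|-2|y| = 2 (s-|y|)^+`, lower bound form -/
theorem abs_second {y s : ℝ} (hs : 0 ≤ s) : 2 * |y| + 2 * max (s - |y|) 0 ≤ |y - s| + |y + s| := by
  have a1 := le_abs_self (y - s)
  have a2 := neg_le_abs (y - s)
  have a3 := le_abs_self (y + s)
  have a4 := neg_le_abs (y + s)
  rcases le_total 0 y with h | h
  · rw [abs_of_nonneg h]
    rcases le_total (s - y) 0 with h1 | h1
    · rw [max_eq_right h1]; linarith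
    · rw [max_eq_left h1]; linarith
  · rw [abs_of_nonpos h]
    rcases le_total (s - -y) 0 with h1 | h1
    · rw [max_eq_right h1]; linarith
    · rw [max_eq_left h1]; linarith

/-- a finite probability law -/
structure IsLaw {Ω : Type*} [Fintype Ω] (P : Ω → ℝ) : Prop where
  nonneg : ∀ ω, 0 ≤ P ω
  sum : ∑ ω, P ω = 1

/-- convex order below `d U`, for one real random variable -/
def Below {Ω : Type*} [Fintype Ω] (P : Ω → ℝ) (d : ℝ) (X : Ω → ℝ) : Prop :=
  ∀ t : ℝ, ∑ ω, P ω * |X ω - t| ≤ hh d t

/-- the class DD -/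
def DD {Ω V : Type*} [Fintype Ω] (P : Ω → ℝ) (d : V → V → ℝ) (g : Ω → V → ℝ) : Prop :=
  ∀ p q, Below P (d p q) (fun ω => g ω p - g ω q)

section slack

variable {Ω : Type*} [Fintype Ω] {P : Ω → ℝ}

/-- the slack bound: an interval of half length `v` around `t` of probability `Q`, `v ≤ Q d / 4` -/
theorem slack (hP : IsLaw P) {d : ℝ} (hd : 0 < d) {X : Ω → ℝ} (hX : Below P d X) (t v : ℝ)
    (hv : 0 ≤ v) (Q : ℝ) (hQ : Q = ∑ ω ∈ univ.filter (fun ω => |X ω - t| < v), P ω)
    (hvQ : v ≤ Q * d / 4) :
    ∑ ω, P ω * |X ω - t| + Q * v ≤ hh d t := by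
  have hQ0 : 0 ≤ Q := by
    rw [hQ]
    exact sum_nonneg fun ω _ => hP.nonneg ω
  set s : ℝ := Q * d with hs
  have hs0 : 0 ≤ s := by positivity
  have h1 := hX (t + s)
  have h2 := hX (t - s)
  have h3 := hh_second (t := t) hd hs0
  have h4 : 2 * ∑ ω, P ω * |X ω - t| + 2 * (Q * (s - v))
      ≤ ∑ ω, P ω * |X ω - (t + s)| + ∑ ω, P ω * |X ω - (t - s)| := by
    have h5 : Q * (s - v) ≤ ∑ ω, P ω * max (s - |X ω - t|) 0 := by
      calc Q * (s - v) = ∑ ω ∈ univ.filter (fun ω => |X ω - t| < v), P ω * (s - v) := by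
            rw [hQ, sum_mul]
        _ ≤ ∑ ω ∈ univ.filter (fun ω => |X ω - t| < v), P ω * max (s - |X ω - t|) 0 := by
            apply sum_le_sum
            intro ω hω
            apply mul_le_mul_of_nonneg_left _ (hP.nonneg ω)
            have := (mem_filter.mp hω).2
            exact le_trans (by linarith) (le_max_left _ _)
        _ ≤ ∑ ω, P ω * max (s - |X ω - t|) 0 := by
            apply sum_le_sum_of_subset_of_nonneg (filter_subset _ _)
            intro ω _ _
            exact mul_nonneg (hP.nonneg ω) (le_max_right _ _)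
    have h6 : 2 * ∑ ω, P ω * |X ω - t| + 2 * ∑ ω, P ω * max (s - |X ω - t|) 0
        ≤ ∑ ω, P ω * |X ω - (t + s)| + ∑ ω, P ω * |X ω - (t - s)| := by
      rw [mul_sum, mul_sum, ← sum_add_distrib, ← sum_add_distrib]
      apply sum_le_sum
      intro ω _
      have h7 := abs_second (y := X ω - t) hs0
      have h8 : X ω - t - s = X ω - (t + s) := by ring
      have h9 : X ω - t + s = X ω - (t - s) := by ring
      rw [h8, h9] at h7
      nlinarith [hP.nonneg ω, mul_le_mul_of_nonneg_left h7 (hP.nonneg ω)]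
    linarith
  have h10 : s ^ 2 / d = Q * s := by
    rw [hs]
    field_simp
  rw [h10] at h3
  nlinarith

end slack

section inject

variable {Ω Ξ V : Type*} [Fintype Ω] [Fintype Ξ] {P : Ω → ℝ} {R : Ξ → ℝ}

theorem IsLaw.prod (hP : IsLaw P) (hR : IsLaw R) : IsLaw (fun z : Ω × Ξ => P z.1 * R z.2) := by
  refine ⟨fun z => mul_nonneg (hP.nonneg _) (hR.nonneg _), ?_⟩
  rw [Fintype.sum_prod_type]
  simp only [← mul_sum, hR.sum, mul_one, hP.sum]

/-- **Injection lemma, one variable.** -/
theorem below_inject (hP : IsLaw P) (hR : IsLaw R) {d : ℝ} (hd : 0 ≤ d) {X : Ω → ℝ}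
    (hX : Below P d X) (x : Ξ → ℝ) (hx0 : ∑ ξ, R ξ * x ξ = 0) {u pmin : ℝ} (hu : 0 ≤ u)
    (hxu : ∀ ξ, |x ξ| ≤ u) (hup : 4 * u ≤ pmin) (H : Ω → Prop) [DecidablePred H]
    (hH : ∀ ω, H ω → pmin ≤ P ω) (w : ℝ) (hw : |w| ≤ d) :
    Below (fun z : Ω × Ξ => P z.1 * R z.2) d
      (fun z => X z.1 + (if H z.1 then x z.2 * w else 0)) := by
  classical
  rcases hd.eq_or_lt with h0 | hd0
  · have hw0 : w = 0 := abs_eq_zero.mp (le_antisymm (by rw [h0]; exact hw) (abs_nonneg w))
    intro t
    rw [Fintype.sum_prod_type]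
    have h1 : ∀ ω, ∑ ξ, P ω * R ξ * |X ω + (if H ω then x ξ * w else 0) - t|
        = P ω * |X ω - t| := by
      intro ω
      have : ∀ ξ, P ω * R ξ * |X ω + (if H ω then x ξ * w else 0) - t|
          = P ω * |X ω - t| * R ξ := by
        intro ξ
        rw [hw0, mul_zero, ite_self, add_zero]
        ring
      rw [sum_congr rfl fun ξ _ => this ξ, ← mul_sum, hR.sum, mul_one]
    rw [sum_congr rfl fun ω _ => h1 ω]
    exact hX t
  intro t
  set v : ℝ := u * |w| with hv
  have hv0 : 0 ≤ v := by positivity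
  rw [Fintype.sum_prod_type]
  -- inner sums
  have hin : ∀ ω, ∑ ξ, P ω * R ξ * |X ω + (if H ω then x ξ * w else 0) - t|
      ≤ P ω * |X ω - t| + (if H ω ∧ |X ω - t| < v then P ω * v else 0) := by
    intro ω
    by_cases hHω : H ω
    · simp only [hHω, if_true, true_and]
      by_cases hlt : |X ω - t| < v
      · rw [if_pos hlt]
        calc ∑ ξ, P ω * R ξ * |X ω + x ξ * w - t|
            ≤ ∑ ξ, P ω * R ξ * (|X ω - t| + v) := by
              apply sum_le_sum
              intro ξ _
              apply mul_le_mul_of_nonneg_left _ (mul_nonneg (hP.nonneg _) (hR.nonneg _))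
              have e : X ω + x ξ * w - t = (X ω - t) + x ξ * w := by ring
              rw [e]
              refine (abs_add_le _ _).trans ?_
              rw [abs_mul]
              have := mul_le_mul_of_nonneg_right (hxu ξ) (abs_nonneg w)
              linarith
          _ = P ω * |X ω - t| + P ω * v := by
              have : ∀ ξ, P ω * R ξ * (|X ω - t| + v) = P ω * (|X ω - t| + v) * R ξ := by
                intro ξ; ring
              rw [sum_congr rfl fun ξ _ => this ξ, ← mul_sum, hR.sum]
              ring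
      · rw [if_neg hlt, add_zero]
        push_neg at hlt
        -- no sign change
        have hsg : ∀ ξ, |X ω + x ξ * w - t|
            = (if 0 ≤ X ω - t then 1 else -1) * ((X ω - t) + x ξ * w) := by
          intro ξ
          have hb : |x ξ * w| ≤ |X ω - t| := by
            rw [abs_mul]
            exact (mul_le_mul_of_nonneg_right (hxu ξ) (abs_nonneg w)).trans hlt
          have e : X ω + x ξ * w - t = (X ω - t) + x ξ * w := by ring
          rw [e]
          split_ifs with hs
          · rw [abs_of_nonneg hs] at hb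
            rw [abs_of_nonneg, one_mul]
            have := neg_le_of_abs_le hb
            linarith
          · push_neg at hs
            rw [abs_of_neg hs] at hb
            rw [abs_of_nonpos, neg_one_mul]
            have := le_of_abs_le hb
            linarith
        have hsum : ∑ ξ, P ω * R ξ * |X ω + x ξ * w - t|
            = P ω * ((if 0 ≤ X ω - t then 1 else -1) * (X ω - t)) := by
          calc ∑ ξ, P ω * R ξ * |X ω + x ξ * w - t|
              = ∑ ξ, (P ω * ((if 0 ≤ X ω - t then 1 else -1) * (X ω - t)) * R ξ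
                + P ω * (if 0 ≤ X ω - t then 1 else -1) * w * (R ξ * x ξ)) := by
                apply sum_congr rfl
                intro ξ _
                rw [hsg ξ]
                ring
            _ = _ := by
                rw [sum_add_distrib, ← mul_sum, ← mul_sum, hR.sum, hx0]
                ring
        rw [hsum]
        apply le_of_eq
        split_ifs with hs
        · rw [abs_of_nonneg hs, one_mul]
        · push_neg at hs
          rw [abs_of_neg hs, neg_one_mul]
    · simp only [hHω, if_false, false_and, add_zero]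
      apply le_of_eq
      have : ∀ ξ, P ω * R ξ * |X ω - t| = P ω * |X ω - t| * R ξ := by
        intro ξ; ring
      rw [sum_congr rfl fun ξ _ => this ξ, ← mul_sum, hR.sum, mul_one]
  refine (sum_le_sum fun ω _ => hin ω).trans ?_
  rw [sum_add_distrib]
  by_cases hex : ∃ ω, H ω ∧ |X ω - t| < v
  · obtain ⟨ω₀, hω₀, hlt₀⟩ := hex
    set Q : ℝ := ∑ ω ∈ univ.filter (fun ω => |X ω - t| < v), P ω with hQ
    have hQp : pmin ≤ Q := by
      refine (hH ω₀ hω₀).trans ?_
      rw [hQ]
      exact single_le_sum (f := P) (fun ω _ => hP.nonneg ω) (mem_filter.mpr ⟨mem_univ _, hlt₀⟩)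
    have hvQ : v ≤ Q * d / 4 := by
      have h1 : v ≤ u * d := mul_le_mul_of_nonneg_left hw hu
      have h2 : u * d ≤ Q / 4 * d := mul_le_mul_of_nonneg_right (by linarith) hd
      linarith
    have hs := slack hP hd0 hX t v hv0 Q hQ hvQ
    have hle : ∑ ω, (if H ω ∧ |X ω - t| < v then P ω * v else 0) ≤ Q * v := by
      rw [hQ, sum_mul, sum_filter]
      apply sum_le_sum
      intro ω _
      by_cases h1 : |X ω - t| < v
      · by_cases h2 : H ω
        · simp [h1, h2]
        · simp only [h1, h2, false_and, if_false, if_true]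
          exact mul_nonneg (hP.nonneg _) hv0
      · simp [h1]
    linarith
  · push_neg at hex
    have h0 : ∑ ω, (if H ω ∧ |X ω - t| < v then P ω * v else 0) = 0 := by
      apply sum_eq_zero
      intro ω _
      rw [if_neg]
      rintro ⟨h1, h2⟩
      exact absurd h2 (not_lt.mpr (hex ω h1))
    rw [h0, add_zero]
    exact hX t

/-- **Injection lemma (L2).** -/
theorem DD.inject (hP : IsLaw P) (hR : IsLaw R) {d : V → V → ℝ} (hd : ∀ p q, 0 ≤ d p q)
    {g : Ω → V → ℝ} (hg : DD P d g) (x : Ξ → ℝ) (hx0 : ∑ ξ, R ξ * x ξ = 0) {u pmin : ℝ}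
    (hu : 0 ≤ u) (hxu : ∀ ξ, |x ξ| ≤ u) (hup : 4 * u ≤ pmin) (H : Ω → Prop) [DecidablePred H]
    (hH : ∀ ω, H ω → pmin ≤ P ω) (η : V → ℝ) (hη : ∀ p q, |η p - η q| ≤ d p q) :
    DD (fun z : Ω × Ξ => P z.1 * R z.2) d
      (fun z p => g z.1 p + (if H z.1 then x z.2 * η p else 0)) := by
  intro p q
  have h := below_inject hP hR (hd p q) (hg p q) x hx0 hu hxu hup H hH (η p - η q) (hη p q)
  intro t
  have h1 := h t
  refine le_trans (le_of_eq ?_) h1
  apply sum_congr rfl
  rintro ⟨ω, ξ⟩ _
  dsimp only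
  congr 2
  split_ifs <;> ring

end inject

end Vale.Agent.P235.H65
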